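import Vale.Agent.P372.Defs
import Vale.Agent.P372.Locc
import Vale.Agent.P372.Example

namespace Vale.Agent.Results.P372.ZeroKey

open Vale.Agent.P372

/-- An entangled state on `ℂ^10 ⊗ ℂ^10` with zero distillable secret key. -/
theorem result :
    ∃ ρ : Matrix (Fin 10 × Fin 10) (Fin 10 × Fin 10) ℂ,
      IsState ρ ∧ ¬ IsSeparable ρ ∧
      (∃ (dE : ℕ) (ψ : (Fin 10 × Fin 10) × Fin dE → ℂ), IsPurification ψ ρ) ∧
      ∀ (dE : ℕ) (ψ : (Fin 10 × Fin 10) × Fin dE → ℂ), IsPurification ψ ρ →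
        keyRate ψ = 0 ∧
        ∀ (n ℓ : ℕ) (P : Protocol ℓ (10 ^ n) (10 ^ n)) (ε : ℝ),
          1 ≤ ℓ → HasError P (tensorPow ψ n) ε → 1 / 2 ≤ ε := by
  obtain ⟨ρ, hρ, hent, hlink⟩ := exists_entangled_linked
  refine ⟨ρ, hρ, hent, ?_, fun dE ψ hψ => ⟨keyRate_eq_zero hlink hρ.2 hψ,
    fun n ℓ P ε hℓ hε => half_le_error_pow hlink hρ.2 hψ n hℓ P hε⟩⟩
  obtain ⟨ψ, hψ⟩ := exists_purification hρ.1
  let e := Fintype.equivFin (Fin 10 × Fin 10)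
  refine ⟨_, fun x => ψ (x.1, e.symm x.2), ?_⟩
  rw [← hψ]
  ext x y
  exact e.symm.sum_comp fun z => ketBra ψ (x, z) (y, z)

end Vale.Agent.Results.P372.ZeroKey
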